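import Vale.Agent.P207.Q.H129.Trans
import Vale.Agent.P207.Q.WD0

/-!
# P207: from 129's structure `TF` to 183's `FlowS` and 251's `Hyp` (helper858)
-/

open scoped Topology
open MeasureTheory Filter Topology Set

noncomputable section

namespace Vale.Agent.P207.Q.H858

open Vale.Agent.P207.Q.H413
open Vale.Agent.P207.Q.H892 (Curv)
open Vale.Agent.P207.Q.H183 (FlowS)

/-- `[R, X] = 0` in every calculus -/
theorem cal_RX {A : Type*} [NormedCommRing A] [NormedAlgebra ℝ A] {I : A →L[ℝ] ℝ} (c : Cal I)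
    (f : c.S) : c.Y .R (c.Y .X f) = c.Y .X (c.Y .R f) := by
  have h0 := c.VX 0 f
  have h1 := c.VX 1 f
  have h2 := c.VX 0 (c.Y (.V 1) f)
  have h3 := c.VX 1 (c.Y (.V 0) f)
  have h4 := c.VH 0 1 f
  have h5 := c.VH 1 0 f
  have e0 : c.Y (.V 0) (c.Y .X f) = c.Y (.H 0) f + c.Y .X (c.Y (.V 0) f) :=
    sub_eq_iff_eq_add.1 h0
  have e1 : c.Y (.V 1) (c.Y .X f) = c.Y (.H 1) f + c.Y .X (c.Y (.V 1) f) :=
    sub_eq_iff_eq_add.1 h1
  have e2 := sub_eq_iff_eq_add.1 h2
  have e3 := sub_eq_iff_eq_add.1 h3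
  rw [if_neg (by decide)] at h4 h5
  have e4 := sub_eq_zero.1 h4
  have e5 := sub_eq_zero.1 h5
  rw [← c.VV (c.Y .X f), ← c.VV f, e0, e1, map_add, map_add, e2, e3, e4, e5, map_sub]
  abel

variable {P : Type} [TopologicalSpace P] [CompactSpace P] [MeasurableSpace P] [BorelSpace P]
  {m : Measure P} [IsFiniteMeasure m] {c : Cal (intL m)} {ψ : Idx → ℝ → P → P}

/-- 183's structure from 129's -/
def flowS (T : Trans.TF c ψ) : FlowS c where
  φ := ψ .X
  cont := T.cont .X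
  zero := T.zero .X
  add := T.add
  pull := T.cmp
  pull_apply := T.cmp_apply
  contY := T.jcont
  deriv := fun f p r => T.deriv .X f p r

/-- 251's hypotheses, for a pair `TF`, `FlowS` with the same flow and the same operation -/
theorem hyp_of_TF' {C : Curv c} (D : UData c C) {lam : ℝ} (F : FlowS c) (T : Trans.TF c ψ)
    (hF : F.φ = ψ .X) (hp : F.pull = T.cmp) (hl : 0 < lam)
    (hpos : ∀ x a b, lam * (a ^ 2 + b ^ 2) ≤ D.U 0 0 x * a ^ 2 + 2 * D.U 0 1 x * (a * b) +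
      D.U 1 1 x * b ^ 2) : WD.Hyp D F lam where
  lam_pos := hl
  pos := hpos
  tr := by
    intro k f q r
    have h1 := T.deriv_back k f q r
    rw [hF, hp]
    exact h1
  R_pull := by
    intro r f
    apply Subtype.ext
    refine ContinuousMap.ext fun p => ?_
    rw [hp, T.cmp_apply]
    exact T.R_cmp (cal_RX c) r f p

theorem hyp_of_TF {C : Curv c} (D : UData c C) {lam : ℝ} (T : Trans.TF c ψ) (hl : 0 < lam)
    (hpos : ∀ x a b, lam * (a ^ 2 + b ^ 2) ≤ D.U 0 0 x * a ^ 2 + 2 * D.U 0 1 x * (a * b) +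
      D.U 1 1 x * b ^ 2) : WD.Hyp D (flowS T) lam :=
  hyp_of_TF' D (flowS T) T rfl rfl hl hpos

end Vale.Agent.P207.Q.H858
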